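import Vale.Agent.P224.R2.H484.AbsH

/-!
The absolute tail: checks for the thresholds `(96/5, 53/4)`, `100 ≤ m ≤ 140` (round value
`37e-6`) and `140 ≤ m ≤ 150`, grid with 200 cells.
-/

namespace Vale.Agent.P224.R2.H684

open Vale.Agent.P224.R2.H484

lemma okC_100_140 : absOKg 200 wR 100 (1 / (140 : ℕ)) (lcG kR (96 / 5) (53 / 4)) (37 / 1000000)
    = true := by decide +kernel
lemma okC_100_139 : absOKg 200 wR 100 (1 / (139 : ℕ)) (lcG kR (96 / 5) (53 / 4)) (37 / 1000000)
    = true := by decide +kernel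
lemma okC_140_150 : absOKg 200 wR 140 (1 / (150 : ℕ)) (lcG kR (96 / 5) (53 / 4)) (37 / 1000000)
    = true := by decide +kernel

end Vale.Agent.P224.R2.H684
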