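import Vale.Agent.P224.R2.H577.Ent

/-!
The near range for a smaller bound of the mean normal.
-/

namespace Vale.Agent.P224.R2.H684

open MeasureTheory Set Filter Function Real Module Matrix Vale.Agent.P224
  Vale.Agent.P224.R2.H820 Vale.Agent.P224.R2.H582 Vale.Agent.P224.R2.H627
  Vale.Agent.P224.R2.H728 Vale.Agent.P224.R2.H484 Vale.Agent.P224.R2.H925
  Vale.Agent.P224.R2.H577
open Vale.Agent.P224.SM2 hiding ker
open scoped Topology RealInnerProductSpace ContDiff Manifold

variable {V W M : Type*} [NormedAddCommGroup V] [InnerProductSpace ℝ V] [FiniteDimensional ℝ V]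
  [NormedAddCommGroup W] [InnerProductSpace ℝ W] [FiniteDimensional ℝ W]
  [TopologicalSpace M] [ChartedSpace V M]
  [MeasurableSpace V] [BorelSpace V] [MeasurableSpace M] [BorelSpace M]

lemma nearU_le {ν ν' : ℝ} {H D : ℕ → ℚ} {F : M → W} (h : NearU V ν H D F) (hν : ν' ≤ ν) :
    NearU V ν' H D F := by
  obtain ⟨p, h1, h2, h3, h4⟩ := h
  exact ⟨p, h1, h2, h3, fun N b j hd => h4 N b j
    ⟨hd.smooth, hd.unit, hd.inj, hd.t0, hd.lsq, hd.mean.trans_le hν⟩⟩

end Vale.Agent.P224.R2.H684
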