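import Vale.Agent.P224.R2.H484.AbsH

/-!
The absolute tail: checks for the thresholds `(96/5, 53/4)`, grid with 200 cells.
-/

namespace Vale.Agent.P224.R2.H684

open Vale.Agent.P224.R2.H484

lemma okC_100_150 : absOKg 200 wR 100 (1 / (150 : ℕ)) (lcG kR (96 / 5) (53 / 4)) (373 / 10000000)
    = true := by decide +kernel
lemma okC_150_200 : absOKg 200 wR 150 (1 / (200 : ℕ)) (lcG kR (96 / 5) (53 / 4)) (434 / 10000000)
    = true := by decide +kernel
lemma okC_200_230 : absOKg 200 wR 200 (1 / (230 : ℕ)) (lcG kR (96 / 5) (53 / 4)) (465 / 10000000)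
    = true := by decide +kernel
lemma okC_200_250 : absOKg 200 wR 200 (1 / (250 : ℕ)) (lcG kR (96 / 5) (53 / 4)) (480 / 10000000)
    = true := by decide +kernel
lemma okC_200_300 : absOKg 200 wR 200 (1 / (300 : ℕ)) (lcG kR (96 / 5) (53 / 4)) (510 / 10000000)
    = true := by decide +kernel
lemma okC_250_300 : absOKg 200 wR 250 (1 / (300 : ℕ)) (lcG kR (96 / 5) (53 / 4)) (508 / 10000000)
    = true := by decide +kernel

end Vale.Agent.P224.R2.H684
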