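import Vale.Agent.P224.R2.H684.RelFC
import Vale.Agent.P224.R2.H684.NuLe
import Vale.Agent.P224.R2.H577.N230

/-!
The near range on the dimensions `230 ≤ m ≤ 249`.
-/

namespace Vale.Agent.P224.R2.H684

open MeasureTheory Set Filter Function Real Module Matrix Vale.Agent.P224
  Vale.Agent.P224.R2.H820 Vale.Agent.P224.R2.H582 Vale.Agent.P224.R2.H627
  Vale.Agent.P224.R2.H728 Vale.Agent.P224.R2.H484 Vale.Agent.P224.R2.H925
  Vale.Agent.P224.R2.H869 Vale.Agent.P224.R2.H577
open Vale.Agent.P224.SM2 hiding ker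
open Vale.Agent.P224.R2.H535 (boxH boxD)
open scoped Topology RealInnerProductSpace ContDiff Manifold

set_option linter.unusedSectionVars false

section

variable {V W M : Type*} [NormedAddCommGroup V] [InnerProductSpace ℝ V] [FiniteDimensional ℝ V]
  [NormedAddCommGroup W] [InnerProductSpace ℝ W] [FiniteDimensional ℝ W]
  [TopologicalSpace M] [ChartedSpace V M]
  [MeasurableSpace V] [BorelSpace V] [MeasurableSpace M] [BorelSpace M]
  [MeasurableSpace W] [BorelSpace W] [IsManifold 𝓘(ℝ, V) ∞ M]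
  [CompactSpace M] [T2Space M]

/-- **the near range**, `230 ≤ m ≤ 249` -/
theorem nearF_230 [Nonempty M] (h1 : 230 ≤ finrank ℝ V) (h2 : finrank ℝ V ≤ 249)
    (hW : finrank ℝ W = finrank ℝ V + 2)
    {F : M → W} (hF : SphImm V F) (hmin : ∀ x n, IsUnitNormal V F x n → meanCurv V F x n = 0) :
    NearU V (59 / 10000 : ℝ) boxH boxD F :=
  nearU_le (near_230_249 h1 h2 hW hF hmin (relF_230 h1 h2 hW hF hmin)) (by push_cast; norm_num)

end

end Vale.Agent.P224.R2.H684
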