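import Vale.Agent.P224.R2.H484.AbsH

/-!
The absolute tail: checks for the thresholds `(96/5, 53/4)`, grid with 200 cells.
-/

namespace Vale.Agent.P224.R2.H684

open Vale.Agent.P224.R2.H484

lemma okC_300_350 : absOKg 200 wR 300 (1 / (350 : ℕ)) (lcG kR (96 / 5) (53 / 4)) (528 / 10000000)
    = true := by decide +kernel
lemma okC_300_400 : absOKg 200 wR 300 (1 / (400 : ℕ)) (lcG kR (96 / 5) (53 / 4)) (545 / 10000000)
    = true := by decide +kernel
lemma okC_350_400 : absOKg 200 wR 350 (1 / (400 : ℕ)) (lcG kR (96 / 5) (53 / 4)) (544 / 10000000)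
    = true := by decide +kernel
lemma okC_400_500 : absOKg 200 wR 400 (1 / (500 : ℕ)) (lcG kR (96 / 5) (53 / 4)) (568 / 10000000)
    = true := by decide +kernel
lemma okC_400_600 : absOKg 200 wR 400 (1 / (600 : ℕ)) (lcG kR (96 / 5) (53 / 4)) (585 / 10000000)
    = true := by decide +kernel
lemma okC_400_850 : absOKg 200 wR 400 (1 / (850 : ℕ)) (lcG kR (96 / 5) (53 / 4)) (610 / 10000000)
    = true := by decide +kernel

end Vale.Agent.P224.R2.H684
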