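import Vale.Agent.P224.R2.H484.AbsH

/-!
The absolute tail for all `m ≥ 400`: checks for the thresholds `(193/10, 133/10)`,
grid with 200 cells.
-/

namespace Vale.Agent.P224.R2.H684

open Vale.Agent.P224.R2.H484

lemma okS_400 : absOKg 200 wR 400 0 (lcG kR (193 / 10) (133 / 10)) (65 / 1000000)
    = true := by decide +kernel
lemma okS_400' : absOKg 200 wR 400 0 (lcG kR (193 / 10) (133 / 10)) (646 / 10000000)
    = true := by decide +kernel
lemma okC_400 : absOKg 200 wR 400 0 (lcG kR (96 / 5) (53 / 4)) (676 / 10000000)
    = true := by decide +kernel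

end Vale.Agent.P224.R2.H684
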