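import Vale.Agent.P224.R2.H484.AbsH

/-!
The absolute tail: checks for the thresholds `(387/20, 133/10)` and `(75/4, 261/20)`, grid with 200 cells.
-/

namespace Vale.Agent.P224.R2.H684

open Vale.Agent.P224.R2.H484

lemma okD_400_600 : absOKg 200 wR 400 (1 / (600 : ℕ)) (lcG kR (387 / 20) (133 / 10)) (549 / 10000000)
    = true := by decide +kernel
lemma okD_400_850 : absOKg 200 wR 400 (1 / (850 : ℕ)) (lcG kR (387 / 20) (133 / 10)) (573 / 10000000)
    = true := by decide +kernel
lemma okD_600_850 : absOKg 200 wR 600 (1 / (850 : ℕ)) (lcG kR (387 / 20) (133 / 10)) (571 / 10000000)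
    = true := by decide +kernel
lemma okE_36_60 : absOKg 200 wR 36 (1 / (60 : ℕ)) (lcG kR (75 / 4) (261 / 20)) (178 / 10000000)
    = true := by decide +kernel
lemma okE_60_75 : absOKg 200 wR 60 (1 / (75 : ℕ)) (lcG kR (75 / 4) (261 / 20)) (244 / 10000000)
    = true := by decide +kernel
lemma okE_75_100 : absOKg 200 wR 75 (1 / (100 : ℕ)) (lcG kR (75 / 4) (261 / 20)) (346 / 10000000)
    = true := by decide +kernel
lemma okE_60_100 : absOKg 200 wR 60 (1 / (100 : ℕ)) (lcG kR (75 / 4) (261 / 20)) (345 / 10000000)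
    = true := by decide +kernel

end Vale.Agent.P224.R2.H684
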