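import Vale.Agent.P224.R2.H582.WnIn
import Vale.Agent.P224.R2.H627.Inst

/-!
The numbers of the law for one dimension, threshold `A / (1 - T ^ 2)` on `(0, 7/10)`.
-/

namespace Vale.Agent.P224.R2.H684

open MeasureTheory Set Filter Function Real
open Vale.Agent.P224.R2.H627 Vale.Agent.P224.R2.H820 Vale.Agent.P224.SM2
open Vale.Agent.P224.R2.H925 Vale.Agent.P224.R2.H582
open scoped Topology

/-- parameters of the evaluator of the weights for the threshold `A / (1 - T ^ 2)` -/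
def numA (A : ℚ) (m : ℕ) : NumP where
  s := sgQ m
  la := [A, 0, A, 0, A, 0, A, 0, 2 * A]
  lb := [A, 0, A, 0, A, 0, A, 0, A]
  nL := 7
  nU := 8
  t1 := 7 / 10
  kap := 31 / 10
  p := 20

/-- the check of the numbers of one dimension -/
def lrowOK (A : ℚ) (r : NRow) : Bool :=
  decide (17 ≤ r.m) && chk0 r.m (numA A r.m) r.w0 && chk1 r.m (numA A r.m) r.w1
    && chkE r.m r.e1 r.e2 && decide (ruq r.m ≤ r.g)

variable {A : ℚ}

lemma le_lamA (hA : 0 ≤ A) {T x : ℝ} (hT : T ∈ Ioo (0 : ℝ) (7 / 10)) (hx : (1 - T ^ 2) * x = A) :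
    x ≤ pe [A, 0, A, 0, A, 0, A, 0, 2 * A] 0 T := by
  have hA' : (0 : ℝ) ≤ A := by exact_mod_cast hA
  have h2 : T ^ 2 ≤ 49 / 100 := by nlinarith [hT.1, hT.2]
  have hk : 0 < 1 - T ^ 2 := by linarith
  have e : pe [A, 0, A, 0, A, 0, A, 0, 2 * A] 0 T
      = A * (1 + T ^ 2 + T ^ 4 + T ^ 6 + 2 * T ^ 8) := by
    simp only [pe]
    push_cast
    ring
  rw [e]
  refine le_of_mul_le_mul_left ?_ hk
  rw [hx]
  have h8 : 0 ≤ T ^ 8 := by positivity
  have : (1 - T ^ 2) * (A * (1 + T ^ 2 + T ^ 4 + T ^ 6 + 2 * T ^ 8))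
      = A + A * (T ^ 8 * (1 - 2 * T ^ 2)) := by ring
  rw [this]
  have : 0 ≤ A * (T ^ 8 * (1 - 2 * T ^ 2)) :=
    mul_nonneg hA' (mul_nonneg h8 (by linarith))
  linarith

lemma lamA_le (hA : 0 ≤ A) {T x : ℝ} (hT : T ∈ Ioo (0 : ℝ) (7 / 10)) (hx : (1 - T ^ 2) * x = A) :
    pe [A, 0, A, 0, A, 0, A, 0, A] 0 T ≤ x := by
  have hA' : (0 : ℝ) ≤ A := by exact_mod_cast hA
  have h2 : T ^ 2 ≤ 49 / 100 := by nlinarith [hT.1, hT.2]
  have hk : 0 < 1 - T ^ 2 := by linarith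
  have e : pe [A, 0, A, 0, A, 0, A, 0, A] 0 T = A * (1 + T ^ 2 + T ^ 4 + T ^ 6 + T ^ 8) := by
    simp only [pe]
    push_cast
    ring
  rw [e]
  refine le_of_mul_le_mul_left ?_ hk
  rw [hx]
  have h8 : 0 ≤ T ^ 10 := by positivity
  have : (1 - T ^ 2) * (A * (1 + T ^ 2 + T ^ 4 + T ^ 6 + T ^ 8)) = A - A * T ^ 10 := by ring
  rw [this]
  have := mul_nonneg hA' h8
  linarith

/-- **what the check gives**: the numbers of the law with the tangent at `- sgQ m`, of the weight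
of the second term of the first square, and of the mean normal term -/
theorem lrow_sound {r : NRow} (hA : 0 ≤ A) (h : lrowOK A r = true) :
    17 ≤ r.m ∧
    (∀ lam : ℝ → ℝ, (∀ T ∈ Ioo (0 : ℝ) (7 / 10), (1 - T ^ 2) * lam T = A) →
      WNum r.m lam (beM r.m) (7 / 10) (sgQ r.m : ℚ) r.w0 r.w1)
    ∧ (r.e1 : ℝ) ≤ r.m * (r.m + 1) * EM r.m 1 ∧ r.m * (r.m + 1) * EM r.m 1 ≤ (r.e2 : ℝ)
    ∧ r.m * rM r.m 0 ≤ (r.g : ℝ) := by
  simp only [lrowOK, Bool.and_eq_true, decide_eq_true_eq] at h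
  obtain ⟨⟨⟨⟨h1, h2⟩, h3⟩, h4⟩, h5⟩ := h
  obtain ⟨k1, k2⟩ := chkE_sound h1 h4
  refine ⟨h1, fun lam hlam => ?_, k1, k2, (gam_le h1).trans ?_⟩
  · have e : ((numA A r.m).t1 : ℝ) = 7 / 10 := by
      simp only [numA]
      norm_num
    have h6 := wnum_of (lam := lam) (be' := beM r.m) h1 h2 h3 (fun T _ => ?_)
      (fun T hT => ?_) (fun T hT => ?_)
    · rw [e] at h6
      exact h6
    · unfold beM
      simp only [numA]
      norm_num
    · rw [e] at hT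
      exact le_lamA hA hT (hlam T hT)
    · rw [e] at hT
      exact lamA_le hA hT (hlam T hT)
  · exact_mod_cast h5

/-- the rows of a checked table -/
theorem lrow_mem {l : List NRow} (h : l.all (lrowOK A) = true) {r : NRow} (hr : r ∈ l) :
    lrowOK A r = true := List.all_eq_true.1 h r hr

end Vale.Agent.P224.R2.H684
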