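import Vale.Agent.P224.R2.H684.LamR
import Vale.Agent.P224.R2.H627.Pkc
import Vale.Agent.P224.R2.H627.Pkd

/-!
The laws and the near range of one dimension for the thresholds `(96/5, 53/4)`, `m ≥ 100`, and
`(387/20, 133/10)`, `(193/10, 133/10)`, `m ≥ 400`.
-/

namespace Vale.Agent.P224.R2.H684

open MeasureTheory Set Filter Function Real Module Matrix Vale.Agent.P224
  Vale.Agent.P224.R2.H820 Vale.Agent.P224.R2.H582 Vale.Agent.P224.R2.H627
  Vale.Agent.P224.R2.H728 Vale.Agent.P224.R2.H484 Vale.Agent.P224.R2.H925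
open Vale.Agent.P224.SM2 hiding ker
open Vale.Agent.P224.R2.H176 (NearData NearOut)
open scoped Topology RealInnerProductSpace ContDiff Manifold

set_option linter.unusedSectionVars false

/-- the polynomial inequalities, `(96/5, 53/4)` -/
theorem pkC : Pk (((96 / 5 : ℚ) : ℝ)) (((53 / 4 : ℚ) : ℝ)) (1 / 50) := by
  have h := pk_c
  norm_num at h ⊢
  exact h

/-- the polynomial inequalities, `(387/20, 133/10)` -/
theorem pkD : Pk (((387 / 20 : ℚ) : ℝ)) (((133 / 10 : ℚ) : ℝ)) (1 / 200) := by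
  have h := pk_d
  norm_num at h ⊢
  exact h

section

variable {V W M : Type*} [NormedAddCommGroup V] [InnerProductSpace ℝ V] [FiniteDimensional ℝ V]
  [NormedAddCommGroup W] [InnerProductSpace ℝ W] [FiniteDimensional ℝ W]
  [TopologicalSpace M] [ChartedSpace V M]
  [MeasurableSpace V] [BorelSpace V] [MeasurableSpace M] [BorelSpace M]
  [MeasurableSpace W] [BorelSpace W] [IsManifold 𝓘(ℝ, V) ∞ M]
  [CompactSpace M] [T2Space M]

/-- **all instances of the law for the checkers**, thresholds `(96/5, 53/4)`, `m ≥ 100` -/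
theorem lawIn_C [Nonempty M] {ab : ℚ} {rels : List (ℚ × ℚ)} {m : ℕ}
    {nums : List NumE} {p : ParQ} {laws : List LawQ}
    (hin : inOK (blkX (96 / 5) ab (rels ++ [relFree])) m nums p laws = true)
    (hmm : m = finrank ℝ V) (h100 : 100 ≤ m)
    (hW : finrank ℝ W = finrank ℝ V + 2)
    {F : M → W} (hF : SphImm V F) (hmin : ∀ x n, IsUnitNormal V F x n → meanCurv V F x n = 0)
    {m1 : ℕ} {x : ℚ} (hab : absOKg 200 wR m1 x (lcG kR (96 / 5) (53 / 4)) ab = true)
    (h17 : 17 ≤ m1) (hm1 : m1 ≤ m) (h1000 : m ≤ 1000) (hx : (x : ℝ) ≤ 1 / m) {ν : ℝ}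
    (hrel : RelU (96 / 5) (53 / 4) V W M rels ν m F)
    {N : M → W} {b : OrthonormalBasis (Fin (finrank ℝ W)) ℝ W} {j : Fin (finrank ℝ W) → ℝ}
    (hd : NearData V F N b j ν) : LawIn V F N m p laws b j := by
  have hmR : (100 : ℝ) ≤ m := by exact_mod_cast h100
  refine lawIn_R pkC (by norm_num) (by norm_num) hin hmm h100 ?_ hW hF hmin hab h17 hm1 h1000 hx
    hrel hd
  rw [div_le_div_iff₀ (by linarith) (by norm_num)]
  linarith

/-- **the near range of one dimension**, checker `nearX`, thresholds `(96/5, 53/4)`,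
`m ≥ 100` -/
theorem near_XXC [Nonempty M] {ab : ℚ} {rels : List (ℚ × ℚ)} {m : ℕ}
    {nums : List NumE} {p : ParQ} {laws : List LawQ} {els : List (ElQ × ℚ × ℚ)}
    {cols : List ColQ}
    (hin : inOK (blkX (96 / 5) ab (rels ++ [relFree])) m nums p laws = true)
    (hok : nearX p laws (els.map Prod.fst) cols = true) (hels : e7All p.m els = true)
    (hmm : m = finrank ℝ V) (h100 : 100 ≤ m)
    (hW : finrank ℝ W = finrank ℝ V + 2)
    {F : M → W} (hF : SphImm V F) (hmin : ∀ x n, IsUnitNormal V F x n → meanCurv V F x n = 0)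
    {m1 : ℕ} {x : ℚ} (hab : absOKg 200 wR m1 x (lcG kR (96 / 5) (53 / 4)) ab = true)
    (h17 : 17 ≤ m1) (hm1 : m1 ≤ m) (h1000 : m ≤ 1000) (hx : (x : ℝ) ≤ 1 / m) {ν : ℝ}
    (hν : ν ≤ p.ν) (hrel : RelU (96 / 5) (53 / 4) V W M rels ν m F)
    (N : M → W) (b : OrthonormalBasis (Fin (finrank ℝ W)) ℝ W) (j : Fin (finrank ℝ W) → ℝ)
    (hd : NearData V F N b j ν) : NearOut V F N b j p.gp p.h1 p.d1 := by
  have hmR : (100 : ℝ) ≤ m := by exact_mod_cast h100
  refine near_XXP pkC (by norm_num) (by norm_num) hin hok hels hmm h100 ?_ hW hF hmin hab h17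
    hm1 h1000 hx hν hrel N b j hd
  rw [div_le_div_iff₀ (by linarith) (by norm_num)]
  linarith

end

end Vale.Agent.P224.R2.H684
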