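import Vale.Agent.P224.R2.H925.NxR
import Vale.Agent.P224.R2.H925.WU2
import Vale.Agent.P224.R2.H627.FraR

/-!
The near range of one dimension for every pair of levels `(c₁, c₂)` with the polynomial
inequalities `Pk c₁ c₂ tm`.
-/

namespace Vale.Agent.P224.R2.H684

open MeasureTheory Set Filter Function Real Module Matrix Vale.Agent.P224
  Vale.Agent.P224.R2.H820 Vale.Agent.P224.R2.H582 Vale.Agent.P224.R2.H627
  Vale.Agent.P224.R2.H728 Vale.Agent.P224.R2.H484 Vale.Agent.P224.R2.H925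
open Vale.Agent.P224.SM2 hiding ker
open Vale.Agent.P224.R2.H176 (NearData NearOut)
open scoped Topology RealInnerProductSpace ContDiff Manifold

set_option linter.unusedSectionVars false

/-- the conditions of the law for the threshold `max c₁ (c₂ / (1 - T^2))` -/
theorem fraX {m : ℕ} (hm : 17 ≤ m) {c1 c2 tm : ℝ} (P : Pk c1 c2 tm) (ht : 2 / (m : ℝ) ≤ tm)
    {T1 : ℝ} (hT1 : T1 ≤ 7 / 10) : Fra m (lamX c1 c2) (beR m) T1 := by
  refine fra_R hm P ht (fun T hT => ?_) hT1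
  have hk : 0 < 1 - T ^ 2 := by nlinarith [hT.1, hT.2]
  rw [lamX_mul hT]
  rcases le_total (c2 / (1 - T ^ 2)) c1 with h | h
  · rw [max_eq_left h]
    exact Or.inl le_rfl
  · rw [max_eq_right h, mul_div_cancel₀ _ hk.ne']
    exact Or.inr le_rfl

/-- the number of the crude law -/
theorem cnumR {m : ℕ} (hm : 100 ≤ m) {lam : ℝ → ℝ}
    (hl : ∀ T ∈ Ioo (0 : ℝ) (3 / 10), (1 - T ^ 2) * lam T ≤ 97 / 5) {T1 : ℝ}
    (hT1 : 3 / 10 ≤ T1) : CNum m lam (beR m) T1 (11 / 50) := by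
  obtain ⟨B0, i0, h1, h2⟩ := W2.WU_ge hm (κ := 31 / 10) (by norm_num) (lam := lam) hl
  refine ⟨3 / 10, B0, by norm_num, hT1, i0, fun T hT => ?_, h1⟩
  rw [beR_lt (by linarith [hT.2])]
  exact h2 T hT

/-- the number of the crude law, `m ≥ 17` -/
theorem cnumR17 {m : ℕ} (hm : 17 ≤ m) {lam : ℝ → ℝ}
    (hl : ∀ T ∈ Ioo (0 : ℝ) (3 / 10), (1 - T ^ 2) * lam T ≤ 94 / 5) {T1 : ℝ}
    (hT1 : 3 / 10 ≤ T1) : CNum m lam (beR m) T1 (9 / 50) := by
  obtain ⟨B0, i0, h1, h2⟩ := WU_ge (m := m) hm (κ := 31 / 10) (by norm_num) (lam := lam) hl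
  refine ⟨3 / 10, B0, by norm_num, hT1, i0, fun T hT => ?_, h1⟩
  rw [beR_lt (by linarith [hT.2])]
  exact h2 T hT

lemma cnum_mono {m : ℕ} {lam be' : ℝ → ℝ} {T1 w w' : ℝ} (h : CNum m lam be' T1 w)
    (hw : w' ≤ w) : CNum m lam be' T1 w' := by
  obtain ⟨T0, B0, e1, e2, e3, e4, e5⟩ := h
  exact ⟨T0, B0, e1, e2, e3, e4, hw.trans e5⟩

lemma wnum_congr {m : ℕ} {lam be1 be2 : ℝ → ℝ} {T1 σ w0 w1 : ℝ}
    (h : WNum m lam be1 T1 σ w0 w1) (hb : ∀ T ∈ Ioo (0 : ℝ) T1, be2 T = be1 T) :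
    WNum m lam be2 T1 σ w0 w1 := by
  obtain ⟨B0, B1, i0, i1, b0, b1, v0, v1⟩ := h
  refine ⟨B0, B1, i0, i1, fun T hT => ?_, fun T hT => ?_, v0, v1⟩
  · rw [hb T hT]
    exact b0 T hT
  · rw [hb T hT]
    exact b1 T hT

section

variable {V W M : Type*} [NormedAddCommGroup V] [InnerProductSpace ℝ V] [FiniteDimensional ℝ V]
  [NormedAddCommGroup W] [InnerProductSpace ℝ W] [FiniteDimensional ℝ W]
  [TopologicalSpace M] [ChartedSpace V M]
  [MeasurableSpace V] [BorelSpace V] [MeasurableSpace M] [BorelSpace M]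
  [MeasurableSpace W] [BorelSpace W] [IsManifold 𝓘(ℝ, V) ∞ M]
  [CompactSpace M] [T2Space M]

/-- all instances of the law for the checker, any second coefficient -/
theorem lawIn_gen [Nonempty M] {B : BlkQ} {m : ℕ} {nums : List NumE} {p : ParQ}
    {laws : List LawQ} (hin : inOK B m nums p laws = true) (hmm : m = finrank ℝ V)
    (hW : finrank ℝ W = finrank ℝ V + 2)
    {F : M → W} (hF : SphImm V F) (hmin : ∀ x n, IsUnitNormal V F x n → meanCurv V F x n = 0)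
    {lam be' : ℝ → ℝ} (hfr : Fra m lam be' B.t1)
    (hbe : ∀ T ∈ Ioo (0 : ℝ) B.t1, be' T = beM m T)
    (hcr : CNum m lam be' B.t1 (9 / 50))
    (hla : ∀ T ∈ Ioo (0 : ℝ) B.t1, lam T ≤ pe B.la 0 T)
    (hlb : ∀ T ∈ Ioo (0 : ℝ) B.t1, pe B.lb 0 T ≤ lam T)
    {N : M → W} (hNs : ContMDiff 𝓘(ℝ, V) 𝓘(ℝ, W) ∞ N) (hN : ∀ x, IsUnitNormal V F x (N x))
    (hinj : Injective F) (b : OrthonormalBasis (Fin (finrank ℝ W)) ℝ W)
    (j : Fin (finrank ℝ W) → ℝ)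
    (hT : T0Data (nrm (volM V F)) (finrank ℝ V) (co b F) (co b N))
    (hL : LSq (nrm (volM V F)) (Matrix.diagonal j) (co b F) (co b N))
    (ht : TailB V F N m lam b j B) :
    LawIn V F N m p laws b j := by
  have hfin : IsFiniteMeasure (volM V F) := isFiniteMeasure_volM hF
  simp only [inOK, Bool.and_eq_true, decide_eq_true_eq, List.all_eq_true] at hin
  obtain ⟨⟨⟨⟨⟨h17, ht1⟩, ht1'⟩, hpar⟩, hnums⟩, hlaws⟩ := hin
  simp only [parE, Bool.and_eq_true, decide_eq_true_eq] at hpar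
  obtain ⟨⟨⟨⟨⟨-, -⟩, -⟩, c4⟩, c5⟩, c6⟩ := hpar
  have t1R : (3 / 10 : ℝ) ≤ B.t1 := by
    have h' := castQ ht1
    push_cast at h'
    exact h'
  have t1R' : (B.t1 : ℝ) ≤ 1 := by
    have h' := castQ ht1'
    push_cast at h'
    exact h'
  have hh0 := hT.hh_nonneg (diagonal j)
  have hf0 : 0 ≤ fro (De (nrm (volM V F)) (co b F) (co b N)) := fro_nonneg _
  have hWUR : (p.WU : ℝ) ≤ 9 / 50 := by
    have h' := castQ c4
    push_cast at h'
    exact h'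
  refine lawIn_of (T1 := B.t1) (by omega) hW hF hmin hNs hN hinj b j hmm (by linarith) t1R' hfr
    (fun q hq => ?_) (cnum_mono hcr hWUR) (absTail_mono ht.abs (castQ c5))
    (absTail_mono ht.abs (castQ c6))
  have hq' := hlaws q hq
  simp only [lawE, Bool.and_eq_true, decide_eq_true_eq, List.any_eq_true] at hq'
  obtain ⟨⟨⟨⟨⟨⟨d1, d2⟩, d3⟩, d4⟩, d5⟩, ⟨n, hn, ⟨⟨e1, e2⟩, e3⟩⟩⟩, ⟨k, hk, ⟨g1, g2⟩⟩⟩ := hq'
  have hn' := hnums n hn
  simp only [numOK, Bool.and_eq_true, decide_eq_true_eq] at hn'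
  obtain ⟨⟨⟨⟨⟨f1, f2⟩, f3⟩, f4⟩, f5⟩, f6⟩ := hn'
  have hw : WNum m lam (beM m) n.P.t1 n.P.s n.w0 n.w1 := by
    refine wnum_of h17 f1 f2 (fun T hT => ?_) ?_ ?_
    · rw [f3]
      unfold beM
      push_cast
      rfl
    · rw [f4, f5]
      exact hla
    · rw [f4, f6]
      exact hlb
  refine ⟨d1, d2, ?_, absTail_mono ht.abs (castQ d3), fun hd hh1 => ?_⟩
  · have hw2 : WNum m lam be' n.P.t1 n.P.s n.w0 n.w1 :=
      wnum_congr hw (by rw [f4]; exact hbe)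
    obtain ⟨B0, B1, i0, i1, b0, b1, v0, v1⟩ := hw2
    rw [f4, ← e1] at *
    exact ⟨B0, B1, i0, i1, b0, b1, (castQ e2).trans v0, v1.trans (castQ e3)⟩
  · refine absTail_mono (ht.rel k hk fun a => ?_) (mul_le_mul_of_nonneg_right (castQ g2) hh0)
    have d4R : (q.d : ℝ) < 1 := by exact_mod_cast d4
    have d5R : (0 : ℝ) ≤ q.d := by exact_mod_cast d5
    have hfb : fro (De (nrm (volM V F)) (co b F) (co b N)) ≤ (q.d : ℝ) ^ 2 := by
      rw [← Real.sq_sqrt hf0]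
      exact pow_le_pow_left₀ (Real.sqrt_nonneg _) hd 2
    have k1 := hT.w_le (by positivity) hL d5R d4R hfb a
    have k2 := castQ g1
    push_cast at k2
    rw [← hmm] at k1
    linarith

/-- **all instances of the law for the checkers**, thresholds `max c₁ (c₂ / (1 - T^2))`, with the
pair of the list without relative tail -/
theorem lawIn_R [Nonempty M] {c1 c2 : ℚ} {tm : ℝ} (P : Pk (c1 : ℝ) (c2 : ℝ) tm)
    (hc : 4 / 3 * c2 ≤ c1) (hc1 : c1 ≤ 97 / 5) {ab : ℚ} {rels : List (ℚ × ℚ)} {m : ℕ}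
    {nums : List NumE} {p : ParQ} {laws : List LawQ}
    (hin : inOK (blkX c1 ab (rels ++ [relFree])) m nums p laws = true)
    (hmm : m = finrank ℝ V) (h100 : 100 ≤ m) (htm : 2 / (m : ℝ) ≤ tm)
    (hW : finrank ℝ W = finrank ℝ V + 2)
    {F : M → W} (hF : SphImm V F) (hmin : ∀ x n, IsUnitNormal V F x n → meanCurv V F x n = 0)
    {m1 : ℕ} {x : ℚ} (hab : absOKg 200 wR m1 x (lcG kR c1 c2) ab = true) (h17 : 17 ≤ m1)
    (hm1 : m1 ≤ m) (h1000 : m ≤ 1000) (hx : (x : ℝ) ≤ 1 / m) {ν : ℝ}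
    (hrel : RelU c1 c2 V W M rels ν m F)
    {N : M → W} {b : OrthonormalBasis (Fin (finrank ℝ W)) ℝ W} {j : Fin (finrank ℝ W) → ℝ}
    (hd : NearData V F N b j ν) : LawIn V F N m p laws b j := by
  have hc2R : (12 : ℝ) ≤ c2 := P.K1
  have hc2 : (12 : ℚ) ≤ c2 := by exact_mod_cast hc2R
  have hcR : (4 / 3 : ℝ) * c2 ≤ c1 := by
    have h' := castQ hc
    push_cast at h'
    exact h'
  have hc1R : (c1 : ℝ) ≤ 97 / 5 := by
    have h' := castQ hc1
    push_cast at h'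
    exact h'
  have hc10 : 0 ≤ c1 := by linarith
  have hm0 : (0 : ℝ) < m := by
    have : 0 < m := by omega
    exact_mod_cast this
  have ht : (((blkX c1 ab (rels ++ [relFree])).t1 : ℚ) : ℝ) = 1 / 2 := by
    unfold blkX
    push_cast
    rfl
  have hl : ∀ T ∈ Ioo (0 : ℝ) (3 / 10), (1 - T ^ 2) * lamX (c1 : ℝ) c2 T ≤ 97 / 5 := by
    intro T hT
    rw [lamX_half ⟨hT.1, by linarith [hT.2]⟩ (by linarith) hcR]
    exact hc1R
  refine lawIn_gen hin hmm hW hF hmin (lam := lamX c1 c2) (be' := beR m)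
    (fraX (by omega) P htm (by rw [ht]; norm_num))
    (fun T hT => beR_lt (by rw [ht] at hT; linarith [hT.2]))
    (cnum_mono (cnumR h100 hl (by rw [ht]; norm_num)) (by norm_num))
    (fun T hT => lamX_le hc10 (by linarith) hcR (by rw [ht] at hT; exact hT))
    (fun T hT => le_lamX hc10 (by linarith) hcR (by rw [ht] at hT; exact hT))
    hd.smooth hd.unit hd.inj b j hd.t0 hd.lsq ⟨?_, ?_⟩
  · exact abs_X hW hF hmin hd.smooth hd.unit hmm hab h17 hm1 hx (by linarith)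
  · exact relU_free hc10 (by linarith) (h17.trans hm1) h1000 hmm hW hF hmin hrel N b j hd

/-- **the near range of one dimension**, checker `nearX`, thresholds `max c₁ (c₂ / (1 - T^2))`
with the polynomial inequalities `Pk` -/
theorem near_XXP [Nonempty M] {c1 c2 : ℚ} {tm : ℝ} (P : Pk (c1 : ℝ) (c2 : ℝ) tm)
    (hc : 4 / 3 * c2 ≤ c1) (hc1 : c1 ≤ 97 / 5) {ab : ℚ} {rels : List (ℚ × ℚ)} {m : ℕ}
    {nums : List NumE} {p : ParQ} {laws : List LawQ} {els : List (ElQ × ℚ × ℚ)}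
    {cols : List ColQ}
    (hin : inOK (blkX c1 ab (rels ++ [relFree])) m nums p laws = true)
    (hok : nearX p laws (els.map Prod.fst) cols = true) (hels : e7All p.m els = true)
    (hmm : m = finrank ℝ V) (h100 : 100 ≤ m) (htm : 2 / (m : ℝ) ≤ tm)
    (hW : finrank ℝ W = finrank ℝ V + 2)
    {F : M → W} (hF : SphImm V F) (hmin : ∀ x n, IsUnitNormal V F x n → meanCurv V F x n = 0)
    {m1 : ℕ} {x : ℚ} (hab : absOKg 200 wR m1 x (lcG kR c1 c2) ab = true) (h17 : 17 ≤ m1)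
    (hm1 : m1 ≤ m) (h1000 : m ≤ 1000) (hx : (x : ℝ) ≤ 1 / m) {ν : ℝ} (hν : ν ≤ p.ν)
    (hrel : RelU c1 c2 V W M rels ν m F)
    (N : M → W) (b : OrthonormalBasis (Fin (finrank ℝ W)) ℝ W) (j : Fin (finrank ℝ W) → ℝ)
    (hd : NearData V F N b j ν) : NearOut V F N b j p.gp p.h1 p.d1 := by
  have hlaw := lawIn_R P hc hc1 hin hmm h100 htm hW hF hmin hab h17 hm1 h1000 hx hrel hd
  simp only [inOK, Bool.and_eq_true, decide_eq_true_eq] at hin
  obtain ⟨⟨⟨⟨⟨h17', -⟩, -⟩, hpar⟩, -⟩, -⟩ := hin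
  simp only [parE, Bool.and_eq_true, decide_eq_true_eq] at hpar
  obtain ⟨⟨⟨⟨⟨k1, k2⟩, k3⟩, -⟩, -⟩, -⟩ := hpar
  obtain ⟨n1, n2⟩ := chkE_sound h17' k2
  have n3 := (le_gq2 h17').trans (castQ k3)
  have hpmR : (p.m : ℝ) = (finrank ℝ V : ℝ) := by
    rw [k1, ← hmm]
    push_cast
    rfl
  exact nearOut_ofX hmm hok k1 n3 n1 n2 hν hd hlaw
    (e7All_sound els hels (by rw [hpmR]; exact hd.t0) hd.lsq)

end

end Vale.Agent.P224.R2.H684
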