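import Vale.Agent.P224.R2.H728.Nd

/-!
The rational checker of the near law with instances of the law without relative tail: an instance
with `1000 ≤ rel` may only be used with the absolute bound of the tail.
-/

namespace Vale.Agent.P224.R2.H684

open MeasureTheory Set Filter Function Real Finset Matrix Vale.Agent.P224.R2.H582
open Vale.Agent.P224.R2.H728

set_option linter.unusedSectionVars false

/-- the two inequalities of a cell of the first kind with the absolute tail -/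
def absOne (p : ParQ) (q : LawQ) (f : ElQ) (da db ha : ℚ) (c : CellQ) (ω : ℚ) : Bool :=
  let B := BcQ p.m c.ρ ω c.s c.hb
  let A := AcQ p.m p.Γ q.W1 p.E c.ρ ω c.r c.s c.hb q.b B
  let t := cTQ p.m q.W0 q.W1 p.E (wQ p.m) (penQ p.m q.σ db) db q.b B
  decide (db ≤ f.d) && decide (c.hb ≤ f.h) && decide (0 < f.L)
    && (decide (p.ν ≤ c.s) || decide (f.K * c.hb ≤ f.L * c.s)) && decide (0 ≤ f.K)
    && decide ((A * f.K - t * f.L) * ha + (p.gp + q.ab) * f.L ≤ wQ p.m * da ^ 2 * f.L)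
    && decide ((A * f.K - t * f.L) * c.hb + (p.gp + q.ab) * f.L ≤ wQ p.m * da ^ 2 * f.L)

/-- the inequality of a cell of the second kind with the absolute tail -/
def absTwo (p : ParQ) (q : LawQ) (da db ha : ℚ) (c : CellQ) (ω : ℚ) : Bool :=
  let B := BcQ p.m c.ρ ω c.s c.hb
  let A := AcQ p.m p.Γ q.W1 p.E c.ρ ω c.r c.s c.hb q.b B
  let t := cTQ p.m q.W0 q.W1 p.E (wQ p.m) (penQ p.m q.σ db) db q.b B
  decide (p.ν ≤ c.s) && decide (0 ≤ t)
    && decide (A * c.s + q.ab + p.gp ≤ t * ha + wQ p.m * da ^ 2)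

/-- the conditions on a cell with the absolute tail only -/
def cellA (p : ParQ) (q : LawQ) (els : List ElQ) (da db ha : ℚ) (c : CellQ) : Bool :=
  decide (0 ≤ c.ρ) && decide (1 + (p.m + 2) * (db / (1 - db)) ≤ c.ρ ^ 2) && decide (0 ≤ c.r)
    && decide (kqQ p.m * c.hb ≤ c.r ^ 2) && lawOK p q && decide (db ≤ q.d)
    && decide (c.hb ≤ q.h)
    && (if c.kd then
        (match els[c.k]? with
        | none => false
        | some f => absOne p q f da db ha c ((p.m + 2) * ((db + c.hb) / (1 - db))))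
      else absTwo p q da db ha c ((p.m + 2) * ((db + c.hb) / (1 - db))))

/-- the conditions on a cell: with a relative tail, or with the absolute tail only -/
def cellX (p : ParQ) (laws : List LawQ) (els : List ElQ) (da db ha : ℚ) (c : CellQ) : Bool :=
  match laws[c.i]? with
  | none => false
  | some q => (decide (q.rel < 1000) && cellOK p laws els da db ha c) || cellA p q els da db ha c

/-- the cells of a column -/
def cellsX (p : ParQ) (laws : List LawQ) (els : List ElQ) (da db : ℚ) : ℚ → List CellQ → Bool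
  | ha, [] => decide (p.h0 < ha * (1 - db))
  | ha, c :: cs => cellX p laws els da db ha c && cellsX p laws els da db c.hb cs

/-- the columns -/
def colsX (p : ParQ) (laws : List LawQ) (els : List ElQ) : ℚ → List ColQ → Bool
  | da, [] => decide (p.d0 < da)
  | da, c :: cs => decide (c.db < 1) && decide (da ≤ c.db)
    && cellsX p laws els da c.db (if c.db ≤ p.d1 then p.h1 else 0) c.cs
    && colsX p laws els c.db cs

/-- the checker -/
def nearX (p : ParQ) (laws : List LawQ) (els : List ElQ) (cols : List ColQ) : Bool :=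
  decide (0 < p.m) && decide (0 < p.EL) && decide (p.EL ≤ p.E) && decide (0 ≤ p.Γ)
    && decide (0 ≤ p.ν) && decide (0 < p.WU) && decide (0 ≤ p.d0) && decide (p.d0 < 1)
    && decide (p.Γ * p.ν ^ 2 + p.tV + p.gp + 2 * p.E * (kqQ p.m + p.ν ^ 2 / (p.m + 2))
      ≤ wQ p.m * p.d0 ^ 2)
    && decide ((p.Γ * p.ν ^ 2 + p.tU + p.gp) * (p.m + 2) ≤ 2 * p.WU * p.h0)
    && colsX p laws els 0 cols

section

variable {ι Ω : Type*} [Fintype ι] [DecidableEq ι] [MeasurableSpace Ω] {μ : Measure Ω}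
  {m : ℝ} {x N : ι → Ω → ℝ} {j : ι → ℝ}

/-- the hypotheses on the data common to all cells -/
structure HypX (μ : Measure Ω) (p : ParQ) (laws : List LawQ) (els : List ElQ) (x N : ι → Ω → ℝ)
    (j : ι → ℝ) (γ e : ℝ) : Prop where
  dat : T0Data μ (p.m : ℝ) x N
  lsq : LSq μ (diagonal j) x N
  hγ : γ ≤ p.Γ
  heL : (p.EL : ℝ) ≤ e
  he : e ≤ p.E
  hν : √(uu μ N) ≤ p.ν
  hlaw : ∀ q ∈ laws, √(fro (De μ x N)) ≤ q.d → hh μ (diagonal j) x N ≤ q.h →
    ∃ W0 W1 τ : ℝ, (q.W0 : ℝ) ≤ W0 ∧ W1 ≤ q.W1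
    ∧ (q.rel < 1000 → τ ≤ q.rel * hh μ (diagonal j) x N) ∧ τ ≤ q.ab
    ∧ XL μ p.m x N W0 W1 q.σ (wQ p.m : ℚ) e τ < γ * uu μ N + p.gp
  hel : ∀ f ∈ els, √(fro (De μ x N)) ≤ f.d → hh μ (diagonal j) x N ≤ f.h →
    f.L * √(uu μ N) ≤ f.K * hh μ (diagonal j) x N

/-- a cell with a relative tail uses only its instance of the law -/
lemma cellOK_one {p : ParQ} {laws : List LawQ} {els : List ElQ} {da db ha : ℚ} {c : CellQ}
    {q : LawQ} (hq : laws[c.i]? = some q) (h : cellOK p laws els da db ha c = true) :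
    cellOK p [q] els da db ha { c with i := 0 } = true := by
  unfold cellOK at h ⊢
  rw [hq] at h
  exact h

/-- soundness of a cell with the absolute tail -/
theorem cellA_sound {p : ParQ} {laws : List LawQ} {els : List ElQ} {γ e : ℝ}
    (H : HypX μ p laws els x N j γ e) (hm : 0 < p.m) (hEL : 0 < p.EL) (hΓ : 0 ≤ p.Γ)
    {da db ha : ℚ} (hda0 : 0 ≤ da) (hda : (da : ℝ) ≤ √(fro (De μ x N)))
    (hdb : √(fro (De μ x N)) ≤ db) (hdb1 : db < 1) (c : CellQ)
    (hha : (ha : ℝ) ≤ hh μ (diagonal j) x N) (hhb : hh μ (diagonal j) x N ≤ c.hb) {q : LawQ}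
    (hmem : q ∈ laws) (hc : cellA p q els da db ha c = true) : False := by
  simp only [cellA, Bool.and_eq_true, decide_eq_true_eq] at hc
  obtain ⟨⟨⟨⟨⟨⟨⟨hρ, hρ2⟩, hr⟩, hr2⟩, hlq⟩, hqd⟩, hqh⟩, hc⟩ := hc
  have h := H.dat
  have hL := H.lsq
  have hmR : (0 : ℝ) < p.m := by exact_mod_cast hm
  have hELR : (0 : ℝ) < p.EL := by exact_mod_cast hEL
  have hΓR : (0 : ℝ) ≤ p.Γ := by exact_mod_cast hΓ
  have hdb0 : (0 : ℝ) ≤ db := (Real.sqrt_nonneg _).trans hdb
  have hdb1R : (db : ℝ) < 1 := by exact_mod_cast hdb1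
  have hf0 : 0 ≤ fro (De μ x N) := fro_nonneg _
  have hfb : fro (De μ x N) ≤ (db : ℝ) ^ 2 := by
    rw [← Real.sq_sqrt hf0]
    exact pow_le_pow_left₀ (Real.sqrt_nonneg _) hdb 2
  have hda0R : (0 : ℝ) ≤ da := by exact_mod_cast hda0
  have hfa : (da : ℝ) ^ 2 ≤ fro (De μ x N) := by
    rw [← Real.sq_sqrt hf0]
    exact pow_le_pow_left₀ hda0R hda 2
  have hH0 : 0 ≤ hh μ (diagonal j) x N := h.hh_nonneg _
  have hhb0 : (0 : ℝ) ≤ c.hb := hH0.trans hhb
  have hρR : (0 : ℝ) ≤ c.ρ := by exact_mod_cast hρ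
  have hrR : (0 : ℝ) ≤ c.r := by exact_mod_cast hr
  have hρ2R : 1 + ((p.m : ℝ) + 2) * ((db : ℝ) / (1 - db)) ≤ (c.ρ : ℝ) ^ 2 := by
    exact_mod_cast hρ2
  have hr2R : kq p.m * (c.hb : ℝ) ≤ (c.r : ℝ) ^ 2 := by
    rw [← kq_cast]
    exact_mod_cast hr2
  have h1db : (0 : ℝ) < 1 - db := by linarith
  have hj : ∀ a, |j a| ≤ (c.ρ : ℝ) := by
    intro a
    have k1 := h.w_le hmR.le hL hdb0 hdb1R hfb a
    exact abs_le_of_sq_le_sq (by linarith) hρR
  set ωq : ℚ := (p.m + 2) * ((db + c.hb) / (1 - db)) with hωq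
  have hωc : ((ωq : ℚ) : ℝ) = ((p.m : ℝ) + 2) * (((db : ℝ) + c.hb) / (1 - db)) := by
    rw [hωq]
    push_cast
    ring
  have hω0 : (0 : ℝ) ≤ (ωq : ℝ) := by
    rw [hωc]
    positivity
  have hwf : ∑ b, (j b ^ 2 - 1) ^ 2 ≤ (ωq : ℝ) ^ 2 := by
    refine (h.w_fro hmR.le hL hdb0 hdb1R hfb).trans ?_
    rw [hωc]
    refine pow_le_pow_left₀ (by positivity) ?_ 2
    gcongr
  have hqdR : (db : ℝ) ≤ q.d := by exact_mod_cast hqd
  have hqhR : (c.hb : ℝ) ≤ q.h := by exact_mod_cast hqh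
  obtain ⟨W0, W1, τ, hW0, hW1, -, hτ2, hlt⟩ :=
    H.hlaw q hmem (hdb.trans hqdR) (hhb.trans hqhR)
  unfold lawOK at hlq
  simp only [Bool.and_eq_true, decide_eq_true_eq] at hlq
  obtain ⟨⟨⟨⟨l1, l2⟩, l3⟩, l4⟩, l5⟩ := hlq
  have l1R : (0 : ℝ) ≤ q.W0 := by exact_mod_cast l1
  have l2R : (0 : ℝ) ≤ q.W1 := by exact_mod_cast l2
  have l3R : (0 : ℝ) ≤ q.σ := by exact_mod_cast l3
  have l4R : (0 : ℝ) ≤ q.b := by exact_mod_cast l4
  have l5R : 4 * ((q.W1 : ℝ) + p.E) ^ 2 ≤ q.b * (p.EL * (p.m + 4) ^ 2) := by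
    exact_mod_cast l5
  have hw0 : (0 : ℝ) ≤ (wQ p.m : ℚ) := by
    have : 0 ≤ wQ p.m := by unfold wQ; positivity
    exact_mod_cast this
  have hpen0 : (0 : ℝ) ≤ (penQ p.m q.σ db : ℚ) := by
    exact_mod_cast penQ_nonneg p.m q.σ db
  have hpen : 2 * kq p.m - 2 * (q.σ : ℝ) * (1 - db) / (p.m + 2) ≤ (penQ p.m q.σ db : ℚ) := by
    rw [← kq_cast]
    exact_mod_cast le_penQ p.m q.σ db
  by_cases hkd : c.kd = true
  · rw [if_pos hkd] at hc
    cases hf : els[c.k]? with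
    | none => rw [hf] at hc; simp at hc
    | some f =>
      rw [hf] at hc
      have hfm : f ∈ els := List.mem_of_getElem? hf
      simp only [absOne, Bool.and_eq_true, Bool.or_eq_true, decide_eq_true_eq] at hc
      obtain ⟨⟨⟨⟨⟨⟨c1, c2⟩, c3⟩, c4⟩, c5⟩, c6⟩, c7⟩ := hc
      have c1R : (db : ℝ) ≤ f.d := by exact_mod_cast c1
      have c2R : (c.hb : ℝ) ≤ f.h := by exact_mod_cast c2
      have c3R : (0 : ℝ) < f.L := by exact_mod_cast c3
      have c5R : (0 : ℝ) ≤ f.K := by exact_mod_cast c5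
      have hKL := H.hel f hfm (hdb.trans c1R) (hhb.trans c2R)
      have hs : √(uu μ N) ≤ c.s := by
        rcases c4 with c4 | c4
        · have c4R : (p.ν : ℝ) ≤ c.s := by exact_mod_cast c4
          exact H.hν.trans c4R
        · have c4R : (f.K : ℝ) * c.hb ≤ f.L * c.s := by exact_mod_cast c4
          have k1 : (f.K : ℝ) * hh μ (diagonal j) x N ≤ f.K * c.hb :=
            mul_le_mul_of_nonneg_left hhb c5R
          exact le_of_mul_le_mul_left (hKL.trans (k1.trans c4R)) c3R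
      have k6 := (Rat.cast_le (K := ℝ)).2 c6
      have k7 := (Rat.cast_le (K := ℝ)).2 c7
      push_cast at k6 k7
      rw [Ac_cast, cT_cast, Bc_cast] at k6 k7
      have := h.cell_one hmR hL (γ := γ) (gp := p.gp + q.ab) (τ := 0) (rel := 0) (K := f.K)
        (L := f.L) hW0 l1R hW1 l2R hELR H.heL H.he H.hγ hw0 l3R hdb1R.le l5R l4R hdb hρR hω0 hj
        hwf hrR hr2R hs hhb hpen0 hpen hΓR (by simp) hfa hha c3R hKL (by linarith) (by linarith)
      unfold XL at this hlt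
      linarith
  · rw [if_neg hkd] at hc
    simp only [absTwo, Bool.and_eq_true, decide_eq_true_eq] at hc
    obtain ⟨⟨c1, c2⟩, c3⟩ := hc
    have c1R : (p.ν : ℝ) ≤ c.s := by exact_mod_cast c1
    have k2 := (Rat.cast_le (K := ℝ)).2 c2
    have k3 := (Rat.cast_le (K := ℝ)).2 c3
    push_cast at k2 k3
    rw [cT_cast, Bc_cast] at k2
    rw [Ac_cast, cT_cast, Bc_cast] at k3
    have := h.cell_two hmR hL (γ := γ) (gp := p.gp) (τ := τ)
      hW0 l1R hW1 l2R hELR H.heL H.he H.hγ hw0 l3R hdb1R.le l5R l4R hdb hρR hω0 hj hwf hrR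
      hr2R (H.hν.trans c1R) hhb hpen0 hpen hΓR hτ2 hfa hha k2 k3
    linarith

/-- soundness of a cell -/
theorem cellX_sound {p : ParQ} {laws : List LawQ} {els : List ElQ} {γ e : ℝ}
    (H : HypX μ p laws els x N j γ e) (hm : 0 < p.m) (hEL : 0 < p.EL) (hΓ : 0 ≤ p.Γ)
    {da db ha : ℚ} (hda0 : 0 ≤ da) (hda : (da : ℝ) ≤ √(fro (De μ x N)))
    (hdb : √(fro (De μ x N)) ≤ db) (hdb1 : db < 1) (c : CellQ)
    (hha : (ha : ℝ) ≤ hh μ (diagonal j) x N) (hhb : hh μ (diagonal j) x N ≤ c.hb)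
    (hc : cellX p laws els da db ha c = true) : False := by
  unfold cellX at hc
  cases hq : laws[c.i]? with
  | none => rw [hq] at hc; simp at hc
  | some q =>
    rw [hq] at hc
    simp only [Bool.or_eq_true, Bool.and_eq_true, decide_eq_true_eq] at hc
    have hmem : q ∈ laws := List.mem_of_getElem? hq
    rcases hc with ⟨hrel, hc⟩ | hc
    · have H' : NearHyp μ p [q] els x N j γ e := by
        refine ⟨H.dat, H.lsq, H.hγ, H.heL, H.he, H.hν, fun q' hq' hd hh' => ?_, H.hel⟩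
        rw [List.mem_singleton] at hq'
        subst hq'
        obtain ⟨W0, W1, τ, h1, h2, h3, h4, h5⟩ := H.hlaw q' hmem hd hh'
        exact ⟨W0, W1, τ, h1, h2, h3 hrel, h4, h5⟩
      exact cell_sound H' hm hEL hΓ hda0 hda hdb hdb1 { c with i := 0 } hha hhb
        (cellOK_one hq hc)
    · exact cellA_sound H hm hEL hΓ hda0 hda hdb hdb1 c hha hhb hmem hc

/-- soundness of a column -/
theorem cellsX_sound {p : ParQ} {laws : List LawQ} {els : List ElQ} {γ e : ℝ}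
    (H : HypX μ p laws els x N j γ e) (hm : 0 < p.m) (hEL : 0 < p.EL) (hΓ : 0 ≤ p.Γ)
    {da db : ℚ} (hda0 : 0 ≤ da) (hda : (da : ℝ) ≤ √(fro (De μ x N)))
    (hdb : √(fro (De μ x N)) ≤ db) (hdb1 : db < 1)
    (hh0 : (1 - √(fro (De μ x N))) * hh μ (diagonal j) x N ≤ p.h0) (cs : List CellQ) :
    ∀ ha : ℚ, (ha : ℝ) ≤ hh μ (diagonal j) x N → cellsX p laws els da db ha cs = true →
      False := by
  induction cs with
  | nil =>
    intro ha hha hc
    simp only [cellsX, decide_eq_true_eq] at hc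
    have hcR : (p.h0 : ℝ) < ha * (1 - db) := by exact_mod_cast hc
    have h1 : (0 : ℝ) < 1 - db := by
      have : (db : ℝ) < 1 := by exact_mod_cast hdb1
      linarith
    have hH0 : 0 ≤ hh μ (diagonal j) x N := H.dat.hh_nonneg _
    have h2 : (ha : ℝ) * (1 - db) ≤ (1 - √(fro (De μ x N))) * hh μ (diagonal j) x N := by
      rw [mul_comm]
      have k1 : (1 - (db : ℝ)) * ha ≤ (1 - db) * hh μ (diagonal j) x N :=
        mul_le_mul_of_nonneg_left hha h1.le
      have k2 : (1 - (db : ℝ)) * hh μ (diagonal j) x N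
          ≤ (1 - √(fro (De μ x N))) * hh μ (diagonal j) x N :=
        mul_le_mul_of_nonneg_right (by linarith) hH0
      linarith
    linarith
  | cons c cs ih =>
    intro ha hha hc
    simp only [cellsX, Bool.and_eq_true] at hc
    rcases le_or_gt (hh μ (diagonal j) x N) (c.hb : ℝ) with h1 | h1
    · exact cellX_sound H hm hEL hΓ hda0 hda hdb hdb1 c hha h1 hc.1
    · exact ih c.hb h1.le hc.2

/-- soundness of the columns -/
theorem colsX_sound {p : ParQ} {laws : List LawQ} {els : List ElQ} {γ e : ℝ}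
    (H : HypX μ p laws els x N j γ e) (hm : 0 < p.m) (hEL : 0 < p.EL) (hΓ : 0 ≤ p.Γ)
    (hd0 : √(fro (De μ x N)) ≤ p.d0)
    (hh0 : (1 - √(fro (De μ x N))) * hh μ (diagonal j) x N ≤ p.h0) (cs : List ColQ) :
    ∀ da : ℚ, 0 ≤ da → (da : ℝ) ≤ √(fro (De μ x N)) → colsX p laws els da cs = true →
      hh μ (diagonal j) x N ≤ p.h1 ∧ √(fro (De μ x N)) ≤ p.d1 := by
  induction cs with
  | nil =>
    intro da _ hda hc
    simp only [colsX, decide_eq_true_eq] at hc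
    have hcR : (p.d0 : ℝ) < da := by exact_mod_cast hc
    linarith
  | cons c cs ih =>
    intro da hda0 hda hc
    simp only [colsX, Bool.and_eq_true, decide_eq_true_eq] at hc
    obtain ⟨⟨⟨hc1, hc4⟩, hc2⟩, hc3⟩ := hc
    rcases le_or_gt (√(fro (De μ x N))) (c.db : ℝ) with h1 | h1
    · by_cases h2 : c.db ≤ p.d1
      · rw [if_pos h2] at hc2
        have h2R : (c.db : ℝ) ≤ p.d1 := by exact_mod_cast h2
        rcases le_or_gt (hh μ (diagonal j) x N) (p.h1 : ℝ) with h3 | h3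
        · exact ⟨h3, h1.trans h2R⟩
        · exact (cellsX_sound H hm hEL hΓ hda0 hda h1 hc1 hh0 c.cs _ h3.le hc2).elim
      · rw [if_neg h2] at hc2
        refine (cellsX_sound H hm hEL hΓ hda0 hda h1 hc1 hh0 c.cs 0 ?_ hc2).elim
        push_cast
        exact H.dat.hh_nonneg _
    · exact ih c.db (hda0.trans hc4) h1.le hc3

/-- **Soundness of the checker**: if all instances of the law fail then the defect and the
deviation are in the small box. -/
theorem nearX_sound {p : ParQ} {laws : List LawQ} {els : List ElQ} {cols : List ColQ} {γ e : ℝ}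
    (hok : nearX p laws els cols = true) (H : HypX μ p laws els x N j γ e)
    {WU τU τV : ℝ} (hWU : (p.WU : ℝ) ≤ WU) (hτU : τU ≤ p.tU) (hτV : τV ≤ p.tV)
    (hU : WU * Qpt μ p.m x N - τU < γ * uu μ N + p.gp)
    (hV : XL μ p.m x N 0 0 0 (wQ p.m : ℚ) e τV < γ * uu μ N + p.gp) :
    hh μ (diagonal j) x N ≤ p.h1 ∧ √(fro (De μ x N)) ≤ p.d1 := by
  simp only [nearX, Bool.and_eq_true, decide_eq_true_eq] at hok
  obtain ⟨⟨⟨⟨⟨⟨⟨⟨⟨⟨hm, hEL⟩, hELE⟩, hΓ⟩, hν⟩, hWU0⟩, hd00⟩, hd01⟩, hd0⟩, hh0⟩, hcols⟩ := hok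
  have h := H.dat
  have hmR : (0 : ℝ) < p.m := by exact_mod_cast hm
  have hELR : (0 : ℝ) < p.EL := by exact_mod_cast hEL
  have hΓR : (0 : ℝ) ≤ p.Γ := by exact_mod_cast hΓ
  have hνR : (0 : ℝ) ≤ p.ν := by exact_mod_cast hν
  have hWU0R : (0 : ℝ) < p.WU := by exact_mod_cast hWU0
  have hd00R : (0 : ℝ) ≤ p.d0 := by exact_mod_cast hd00
  have hd01R : (p.d0 : ℝ) < 1 := by exact_mod_cast hd01
  have hd0R : (p.Γ : ℝ) * p.ν ^ 2 + p.tV + p.gp + 2 * p.E * (kq p.m + p.ν ^ 2 / (p.m + 2))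
      ≤ (wQ p.m : ℚ) * p.d0 ^ 2 := by
    rw [← kq_cast]
    exact_mod_cast hd0
  have hh0R : ((p.Γ : ℝ) * p.ν ^ 2 + p.tU + p.gp) * (p.m + 2) ≤ 2 * p.WU * p.h0 := by
    exact_mod_cast hh0
  have hw0 : (0 : ℝ) < (wQ p.m : ℚ) := by
    have : 0 < wQ p.m := by unfold wQ; positivity
    exact_mod_cast this
  have hu2 : uu μ N ≤ (p.ν : ℝ) ^ 2 := by
    rw [← Real.sq_sqrt h.uu_nonneg]
    exact pow_le_pow_left₀ (Real.sqrt_nonneg _) H.hν 2
  have hγu : γ * uu μ N ≤ p.Γ * (p.ν : ℝ) ^ 2 :=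
    (mul_le_mul_of_nonneg_right H.hγ h.uu_nonneg).trans (mul_le_mul_of_nonneg_left hu2 hΓR)
  have hQ0 := h.Qpt_nonneg hmR.le
  have hH0 : 0 ≤ hh μ (diagonal j) x N := h.hh_nonneg _
  have hf0 : 0 ≤ fro (De μ x N) := fro_nonneg _
  have hk := kq_nonneg hmR.le
  have he0 : 0 < e := hELR.trans_le H.heL
  -- the bound of the deviation
  have hd : √(fro (De μ x N)) ≤ p.d0 := by
    have k1 := h.Qcss_ge_free hmR.le
    have k2 := h.Qcs_eq hmR.le
    have k3 : e * -(2 * (kq p.m + uu μ N / (p.m + 2))) ≤ e * Qcss μ p.m x N :=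
      mul_le_mul_of_nonneg_left k1 he0.le
    have k4 : e * (2 * (kq p.m + uu μ N / (p.m + 2)))
        ≤ p.E * (2 * (kq p.m + (p.ν : ℝ) ^ 2 / (p.m + 2))) := by
      have hu0 := h.uu_nonneg
      have hE := H.he
      have hE0 : (0 : ℝ) ≤ p.E := he0.le.trans hE
      gcongr
    have k5 : 0 ≤ ((wQ p.m : ℚ) : ℝ) * Qpt μ p.m x N := mul_nonneg hw0.le hQ0
    unfold XL at hV
    rw [k2] at hV
    have k6 : ((wQ p.m : ℚ) : ℝ) * fro (De μ x N) ≤ (wQ p.m : ℚ) * (p.d0 : ℝ) ^ 2 := by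
      nlinarith
    have k7 : fro (De μ x N) ≤ (p.d0 : ℝ) ^ 2 := le_of_mul_le_mul_left k6 hw0
    rw [Real.sqrt_le_left hd00R]
    exact k7
  -- the bound of the defect
  have hh1 : (1 - √(fro (De μ x N))) * hh μ (diagonal j) x N ≤ p.h0 := by
    have k1 := h.Qpt_ge hmR.le H.lsq (le_refl (√(fro (De μ x N))))
    have k2 : (p.WU : ℝ) * Qpt μ p.m x N ≤ WU * Qpt μ p.m x N :=
      mul_le_mul_of_nonneg_right hWU hQ0
    have k3 : (p.WU : ℝ) * (2 * (1 - √(fro (De μ x N))) / (p.m + 2) * hh μ (diagonal j) x N)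
        ≤ p.WU * Qpt μ p.m x N := mul_le_mul_of_nonneg_left k1 hWU0R.le
    have k4 : (p.WU : ℝ) * (2 * (1 - √(fro (De μ x N))) / (p.m + 2) * hh μ (diagonal j) x N)
        ≤ p.Γ * (p.ν : ℝ) ^ 2 + p.tU + p.gp := by linarith
    have k5 : 2 * (p.WU : ℝ) * ((1 - √(fro (De μ x N))) * hh μ (diagonal j) x N)
        ≤ 2 * p.WU * p.h0 := by
      refine le_trans ?_ hh0R
      have k6 := mul_le_mul_of_nonneg_right k4 (by positivity : (0 : ℝ) ≤ p.m + 2)
      refine le_trans (le_of_eq ?_) k6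
      field_simp
    exact le_of_mul_le_mul_left k5 (by positivity)
  exact colsX_sound H hm hEL hΓ hd hh1 cols 0 le_rfl (by push_cast; exact Real.sqrt_nonneg _) hcols

end

end Vale.Agent.P224.R2.H684
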