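import Vale.Agent.P224.R2.H684.Nx
import Vale.Agent.P224.R2.H925.LamX

/-!
The near range of one dimension with the checker `nearX`.
-/

namespace Vale.Agent.P224.R2.H684

open MeasureTheory Set Filter Function Real Module Matrix Vale.Agent.P224
  Vale.Agent.P224.R2.H820 Vale.Agent.P224.R2.H582 Vale.Agent.P224.R2.H627
  Vale.Agent.P224.R2.H728 Vale.Agent.P224.R2.H484 Vale.Agent.P224.R2.H925
open Vale.Agent.P224.SM2 hiding ker
open Vale.Agent.P224.R2.H176 (NearData NearOut)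
open scoped Topology RealInnerProductSpace ContDiff Manifold

set_option linter.unusedSectionVars false

section

variable {V W M : Type*} [NormedAddCommGroup V] [InnerProductSpace ℝ V] [FiniteDimensional ℝ V]
  [NormedAddCommGroup W] [InnerProductSpace ℝ W] [FiniteDimensional ℝ W]
  [TopologicalSpace M] [ChartedSpace V M]
  [MeasurableSpace V] [BorelSpace V] [MeasurableSpace M] [BorelSpace M]
  [MeasurableSpace W] [BorelSpace W] [IsManifold 𝓘(ℝ, V) ∞ M]
  [CompactSpace M] [T2Space M]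

/-- **The output of the near range** from a checked table, for given basis and weights. -/
theorem nearOut_ofX {F : M → W} {m : ℕ} (hmm : m = finrank ℝ V)
    {p : ParQ} {laws : List LawQ} {els : List ElQ} {cols : List ColQ}
    (hok : nearX p laws els cols = true) (hpm : p.m = m)
    (hγ : m * rM m 0 ≤ p.Γ) (hEL : (p.EL : ℝ) ≤ m * (m + 1) * EM m 1)
    (hE : m * (m + 1) * EM m 1 ≤ p.E) {ν : ℝ} (hν : ν ≤ p.ν)
    {N : M → W} {b : OrthonormalBasis (Fin (finrank ℝ W)) ℝ W} {j : Fin (finrank ℝ W) → ℝ}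
    (hd : H176.NearData V F N b j ν)
    (hl : LawIn V F N m p laws b j)
    (hel : ∀ f ∈ els, √(fro (De (nrm (volM V F)) (co b F) (co b N))) ≤ f.d →
        hh (nrm (volM V F)) (diagonal j) (co b F) (co b N) ≤ f.h →
        f.L * √(uu (nrm (volM V F)) (co b N))
          ≤ f.K * hh (nrm (volM V F)) (diagonal j) (co b F) (co b N)) :
    H176.NearOut V F N b j p.gp p.h1 p.d1 := by
  subst hmm
  by_cases hcase : 2 * lamM (finrank ℝ V) * (sphereVol (finrank ℝ V) / (volM V F).real univ)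
      + p.gp ≤ 1
  · exact Or.inl hcase
  refine Or.inr ?_
  push Not at hcase
  have hpmR : (p.m : ℝ) = (finrank ℝ V : ℝ) := by
    rw [hpm]
    push_cast
    rfl
  have huu : uu (nrm (volM V F)) (co b N) = ∑ i, m1 (nrm (volM V F)) (co b N) i ^ 2 := rfl
  have H : HypX (nrm (volM V F)) p laws els (co b F) (co b N) j
      (finrank ℝ V * rM (finrank ℝ V) 0)
      (finrank ℝ V * (finrank ℝ V + 1) * EM (finrank ℝ V) 1) := by
    refine ⟨by rw [hpmR]; exact hd.t0, hd.lsq, hγ, hEL, hE, hd.mean.le.trans hν, ?_, hel⟩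
    intro q hq hdq hh1
    obtain ⟨W0, W1, τ, k1, k2, k3, k4, k5⟩ := hl.main q hq hdq hh1
    refine ⟨W0, W1, τ, k1, k2, fun _ => k3, k4, ?_⟩
    unfold XL
    rw [wQ_cast, hpmR, huu]
    linarith
  obtain ⟨WU, τU, u1, u2, u3⟩ := hl.crude
  obtain ⟨τV, v1, v2⟩ := hl.first
  exact nearX_sound hok H u1 u2 v1 (by rw [hpmR, huu]; linarith)
    (by unfold XL; rw [wQ_cast, hpmR, huu]; linarith)

/-- **the near range of one dimension** -/
theorem near_blkX [Nonempty M] {B : BlkQ} {m : ℕ} {nums : List NumE} {p : ParQ}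
    {laws : List LawQ} {els : List (ElQ × ℚ × ℚ)} {cols : List ColQ}
    (hin : inOK B m nums p laws = true)
    (hok : nearX p laws (els.map Prod.fst) cols = true) (hels : e7All p.m els = true)
    (hmm : m = finrank ℝ V) (hW : finrank ℝ W = finrank ℝ V + 2)
    {F : M → W} (hF : SphImm V F) (hmin : ∀ x n, IsUnitNormal V F x n → meanCurv V F x n = 0)
    {lam : ℝ → ℝ} (hfr : Fra m lam (beM m) B.t1)
    (hl : ∀ T ∈ Ioo (0 : ℝ) (3 / 10), (1 - T ^ 2) * lam T ≤ 94 / 5)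
    (hla : ∀ T ∈ Ioo (0 : ℝ) B.t1, lam T ≤ pe B.la 0 T)
    (hlb : ∀ T ∈ Ioo (0 : ℝ) B.t1, pe B.lb 0 T ≤ lam T) {ν : ℝ} (hν : ν ≤ p.ν)
    (ht : ∀ (N : M → W) (b : OrthonormalBasis (Fin (finrank ℝ W)) ℝ W)
      (j : Fin (finrank ℝ W) → ℝ), NearData V F N b j ν → TailB V F N m lam b j B)
    (N : M → W) (b : OrthonormalBasis (Fin (finrank ℝ W)) ℝ W) (j : Fin (finrank ℝ W) → ℝ)
    (hd : NearData V F N b j ν) : NearOut V F N b j p.gp p.h1 p.d1 := by
  have hlaw := lawIn_blk hin hmm hW hF hmin hfr hl hla hlb hd.smooth hd.unit hd.inj b j hd.t0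
    hd.lsq (ht N b j hd)
  simp only [inOK, Bool.and_eq_true, decide_eq_true_eq] at hin
  obtain ⟨⟨⟨⟨⟨h17, -⟩, -⟩, hpar⟩, -⟩, -⟩ := hin
  simp only [parE, Bool.and_eq_true, decide_eq_true_eq] at hpar
  obtain ⟨⟨⟨⟨⟨c1, c2⟩, c3⟩, -⟩, -⟩, -⟩ := hpar
  obtain ⟨n1, n2⟩ := chkE_sound h17 c2
  have n3 := (le_gq2 h17).trans (castQ c3)
  have hpmR : (p.m : ℝ) = (finrank ℝ V : ℝ) := by
    rw [c1, ← hmm]
    push_cast
    rfl
  exact nearOut_ofX hmm hok c1 n3 n1 n2 hν hd hlaw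
    (e7All_sound els hels (by rw [hpmR]; exact hd.t0) hd.lsq)

/-- **the near range of one dimension**, thresholds `max c₁ (c₂ / (1 - T^2))` -/
theorem near_XX [Nonempty M] {c1 c2 : ℚ} (hc2 : 0 ≤ c2) (hc : 4 / 3 * c2 ≤ c1)
    (hc1 : c1 ≤ 94 / 5) {ab : ℚ} {rels : List (ℚ × ℚ)} {m : ℕ} {nums : List NumE} {p : ParQ}
    {laws : List LawQ} {els : List (ElQ × ℚ × ℚ)} {cols : List ColQ}
    (hin : inOK (blkX c1 ab rels) m nums p laws = true)
    (hok : nearX p laws (els.map Prod.fst) cols = true) (hels : e7All p.m els = true)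
    (hmm : m = finrank ℝ V) (hW : finrank ℝ W = finrank ℝ V + 2)
    {F : M → W} (hF : SphImm V F) (hmin : ∀ x n, IsUnitNormal V F x n → meanCurv V F x n = 0)
    (ha : AdmF m (lamX c1 c2))
    {m1 : ℕ} {x : ℚ} (hab : absOKg 200 wR m1 x (lcG kR c1 c2) ab = true) (h17 : 17 ≤ m1)
    (hm1 : m1 ≤ m) (hx : (x : ℝ) ≤ 1 / m) {ν : ℝ} (hν : ν ≤ p.ν)
    (hrel : ∀ (N : M → W) (b : OrthonormalBasis (Fin (finrank ℝ W)) ℝ W)
      (j : Fin (finrank ℝ W) → ℝ), H176.NearData V F N b j ν →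
      ∀ k ∈ rels, (∀ a, j a ^ 2 ≤ (k.1 : ℝ) * (m + 1)) →
        AbsTail (volM V F) m F N (fun T => (1 - T ^ 2) * lamX c1 c2 T)
        (k.2 * hh (nrm (volM V F)) (diagonal j) (co b F) (co b N)))
    (N : M → W) (b : OrthonormalBasis (Fin (finrank ℝ W)) ℝ W) (j : Fin (finrank ℝ W) → ℝ)
    (hd : H176.NearData V F N b j ν) : H176.NearOut V F N b j p.gp p.h1 p.d1 := by
  have hc2R : (0 : ℝ) ≤ c2 := by exact_mod_cast hc2
  have hcR : (4 / 3 : ℝ) * c2 ≤ c1 := by
    have h' := castQ hc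
    push_cast at h'
    exact h'
  have hc1R : (c1 : ℝ) ≤ 94 / 5 := by
    have h' := castQ hc1
    push_cast at h'
    exact h'
  have hc10 : 0 ≤ c1 := le_trans (by positivity) hc
  have ht : (((blkX c1 ab rels).t1 : ℚ) : ℝ) = 1 / 2 := by
    unfold blkX
    push_cast
    rfl
  refine near_blkX hin hok hels hmm hW hF hmin (lam := lamX c1 c2)
    (fraM (by omega) ha (by rw [ht]; norm_num)) (lamX_hl hc2R hcR hc1R)
    (fun T hT => lamX_le hc10 hc2R hcR (by rw [ht] at hT; exact hT))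
    (fun T hT => le_lamX hc10 hc2R hcR (by rw [ht] at hT; exact hT)) hν
    (fun N' b' j' hd' => ⟨?_, hrel N' b' j' hd'⟩) N b j hd
  exact abs_X hW hF hmin hd'.smooth hd'.unit hmm hab h17 hm1 hx hc2

end

end Vale.Agent.P224.R2.H684
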