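import Vale.Agent.P224.R2.H135.RelM
import Vale.Agent.P224.R2.H106.Certs

/-!
The relative tails of the tables from the certificates.
-/

namespace Vale.Agent.P224.R2.H684

open MeasureTheory Set Filter Function Real Module Matrix Vale.Agent.P224
  Vale.Agent.P224.R2.H820 Vale.Agent.P224.R2.H582 Vale.Agent.P224.R2.H627
  Vale.Agent.P224.R2.H728 Vale.Agent.P224.R2.H484 Vale.Agent.P224.R2.H925
  Vale.Agent.P224.R2.H869
open Vale.Agent.P224.SM2 hiding ker
open scoped Topology RealInnerProductSpace ContDiff Manifold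

set_option linter.unusedSectionVars false

section

variable {V W M : Type*} [NormedAddCommGroup V] [InnerProductSpace ℝ V] [FiniteDimensional ℝ V]
  [NormedAddCommGroup W] [InnerProductSpace ℝ W] [FiniteDimensional ℝ W]
  [TopologicalSpace M] [ChartedSpace V M]
  [MeasurableSpace V] [BorelSpace V] [MeasurableSpace M] [BorelSpace M]
  [MeasurableSpace W] [BorelSpace W] [IsManifold 𝓘(ℝ, V) ∞ M]
  [CompactSpace M] [T2Space M]

/-- **the relative tails**, `45 ≤ m ≤ 59` -/
theorem relF_45 [Nonempty M] (h1 : 45 ≤ finrank ℝ V) (h2 : finrank ℝ V ≤ 59)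
    (hW : finrank ℝ W = finrank ℝ V + 2)
    {F : M → W} (hF : SphImm V F) (hmin : ∀ x n, IsUnitNormal V F x n → meanCurv V F x n = 0)
    {ν : ℝ} : H925.RelU (91 / 5 : ℚ) (61 / 5 : ℚ) V W M
      [(1 / 20, 1 / 50), (7 / 100, 3 / 100)]
      ν (finrank ℝ V) F := by
  have hx : ((1 / (60 : ℕ) : ℚ) : ℝ) ≤ 1 / (finrank ℝ V : ℝ) :=
    H135.x_le (m2 := 60) (by omega) (by omega) (by norm_num) (by norm_num)
  exact H135.relU_cover (B := bA36) (certs := H106.certsA36) (by decide +kernel)
    okA_36_60 (by norm_num) (by omega) hx (by decide +kernel) (by omega) hW hF hmin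
    (by show 36 ≤ finrank ℝ V; omega) (Or.inr (by show finrank ℝ V ≤ 60; omega))

/-- **the relative tails**, `60 ≤ m ≤ 99` -/
theorem relF_60 [Nonempty M] (h1 : 60 ≤ finrank ℝ V) (h2 : finrank ℝ V ≤ 99)
    (hW : finrank ℝ W = finrank ℝ V + 2)
    {F : M → W} (hF : SphImm V F) (hmin : ∀ x n, IsUnitNormal V F x n → meanCurv V F x n = 0)
    {ν : ℝ} : H925.RelU (91 / 5 : ℚ) (61 / 5 : ℚ) V W M
      [(1 / 20, 1 / 50), (17 / 200, 3 / 100), (1 / 10, 2 / 25)]
      ν (finrank ℝ V) F := by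
  have hx : ((1 / (100 : ℕ) : ℚ) : ℝ) ≤ 1 / (finrank ℝ V : ℝ) :=
    H135.x_le (m2 := 100) (by omega) (by omega) (by norm_num) (by norm_num)
  exact H135.relU_cover (B := bA60) (certs := H106.certsA60) (by decide +kernel)
    okA_60_100 (by norm_num) (by omega) hx (by decide +kernel) (by omega) hW hF hmin
    (by show 60 ≤ finrank ℝ V; omega) (Or.inr (by show finrank ℝ V ≤ 100; omega))

end

end Vale.Agent.P224.R2.H684
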